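import Vale.Agent.P103.Main

open Manifold ContDiff Vale.Agent.P103

theorem Vale.Agent.Results.P103.Counterexample.result :
    (¬ ∀ (E : Type) [NormedAddCommGroup E] [NormedSpace ℝ E] [FiniteDimensional ℝ E]
        (M : Type) [MetricSpace M] [ChartedSpace E M] [IsManifold 𝓘(ℝ, E) ∞ M] [CompactSpace M]
        [Nonempty M] (f : C(M, M)), ContMDiff 𝓘(ℝ, E) 𝓘(ℝ, E) 1 f →
          ENNReal.log (specRad f (Module.finrank ℝ E)) ≤ htop f) ∧
    ∃ (E : Type) (_ : NormedAddCommGroup E) (_ : NormedSpace ℝ E) (_ : FiniteDimensional ℝ E)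
      (M : Type) (_ : MetricSpace M) (_ : ChartedSpace E M) (_ : IsManifold 𝓘(ℝ, E) ∞ M)
      (_ : CompactSpace M) (_ : Nonempty M) (f : C(M, M)),
        Module.finrank ℝ E = 9 ∧ ContMDiff 𝓘(ℝ, E) 𝓘(ℝ, E) 1 f ∧ htop f = 0 ∧
          Dynamics.coverEntropy f Set.univ = 0 ∧ Module.End.HasEigenvalue (homMap f 2) 2 ∧
          htop f < ENNReal.log (specRad f (Module.finrank ℝ E)) := by
  have key : ∃ (E : Type) (_ : NormedAddCommGroup E) (_ : NormedSpace ℝ E)
      (_ : FiniteDimensional ℝ E)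
      (M : Type) (_ : MetricSpace M) (_ : ChartedSpace E M) (_ : IsManifold 𝓘(ℝ, E) ∞ M)
      (_ : CompactSpace M) (_ : Nonempty M) (f : C(M, M)),
        Module.finrank ℝ E = 9 ∧ ContMDiff 𝓘(ℝ, E) 𝓘(ℝ, E) 1 f ∧ htop f = 0 ∧
          Dynamics.coverEntropy f Set.univ = 0 ∧ Module.End.HasEigenvalue (homMap f 2) 2 ∧
          htop f < ENNReal.log (specRad f (Module.finrank ℝ E)) := by
    obtain ⟨f, h1, h2, h3, h4, h5⟩ := main
    have h6 : htop f < ENNReal.log (specRad f 9) := by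
      rw [h2]
      exact ENNReal.zero_lt_log_iff.2 (lt_of_lt_of_le (by norm_num) h5)
    have h8 : Module.finrank ℝ (EuclideanSpace ℝ (Fin 1) × EuclideanSpace ℝ (Fin 2) ×
        EuclideanSpace ℝ (Fin 2) × EuclideanSpace ℝ (Fin 2) × EuclideanSpace ℝ (Fin 2)) = 9 := by
      simp
    have hI : 𝓘(ℝ, EuclideanSpace ℝ (Fin 1) × EuclideanSpace ℝ (Fin 2) ×
        EuclideanSpace ℝ (Fin 2) × EuclideanSpace ℝ (Fin 2) × EuclideanSpace ℝ (Fin 2)) = IM := by
      simp only [modelWithCornersSelf_prod]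
    have hM : IsManifold IM ∞ MM := inferInstance
    rw [← hI] at hM h1
    exact ⟨_, _, _, inferInstance, MM, inferInstance, _, hM, inferInstance,
      ⟨(1, NP, NP, NP, NP)⟩, f, h8, h1, h2, h3, h4, by rw [h8]; exact h6⟩
  refine ⟨fun h => ?_, key⟩
  obtain ⟨E, _, _, _, M, _, _, _, _, _, f, -, h1, -, -, -, h6⟩ := key
  exact absurd (h E M f h1) (not_le.2 h6)
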